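import Vale.Agent.Lib.P048.B6

/-- Every graph on at least `(m-1)(n-1)+1` vertices has a cycle of length exactly `m` or an
independent set of `n` vertices, as soon as `n ≥ 2` and `m ≥ 3n`. -/
theorem Vale.Agent.Results.P048.B_main.result {V : Type*} [Fintype V] (G : SimpleGraph V)
    (m n : ℕ) (hn : 2 ≤ n) (hm : 3 * n ≤ m) (hV : (m - 1) * (n - 1) + 1 ≤ Fintype.card V) :
    (∃ (v : V) (c : G.Walk v v), c.IsCycle ∧ c.length = m) ∨
      ∃ s : Finset V, G.IsIndepSet (s : Set V) ∧ s.card = n :=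
  Vale.Agent.Lib.P048.cycle_or_indep3 G m n hn hm hV
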